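import Vale.Agent.Lib.P309.S.MeasRun

/-! # P309 S: the success event of a measurable learner is measurable -/

open MeasureTheory ProbabilityTheory
open scoped ENNReal RealInnerProductSpace
open Vale.Agent.Results.P309.MemoryThreshold

namespace Vale.Agent.Lib.P309.S

variable {d : ℕ}

/-- The set is the finite union over `q : L.State × Bool` of `{run T = q}` (`measurableSet_run`)
intersected with `{ω | arccos ⟪L.out q.1 ω.2.2, ω.1⟫ ≤ ε}`, which is measurable exactly as `hmeas` in
the proof of `success_le` in `Vale/Agent/Results/P309/MemoryThreshold.lean` (`L.measurable_out`). -/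
theorem measurableSet_success (L : Learner d) (hL : IsMeas L) (T : ℕ) (ε : ℝ) :
    MeasurableSet {ω : Sph d × (ℕ → E d) × L.Seed |
      Real.arccos ⟪(L.output T ω.1 ω.2.1 ω.2.2 : E d), (ω.1 : E d)⟫ ≤ ε} := by
  have hmeas : ∀ m : L.State, MeasurableSet {ω : Sph d × (ℕ → E d) × L.Seed |
      Real.arccos ⟪(L.out m ω.2.2 : E d), (ω.1 : E d)⟫ ≤ ε} := by
    intro m
    apply measurableSet_le _ measurable_const
    apply Real.measurable_arccos.comp
    apply Measurable.inner
    · exact measurable_subtype_coe.comp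
        ((L.measurable_out m).comp (measurable_snd.comp measurable_snd))
    · exact measurable_subtype_coe.comp measurable_fst
  have hEq : {ω : Sph d × (ℕ → E d) × L.Seed |
      Real.arccos ⟪(L.output T ω.1 ω.2.1 ω.2.2 : E d), (ω.1 : E d)⟫ ≤ ε}
      = ⋃ q : L.State × Bool, ({ω : Sph d × (ℕ → E d) × L.Seed | L.run ω.1 ω.2.1 ω.2.2 T = q} ∩
          {ω : Sph d × (ℕ → E d) × L.Seed |
            Real.arccos ⟪(L.out q.1 ω.2.2 : E d), (ω.1 : E d)⟫ ≤ ε}) := by
    ext ω
    simp only [Set.mem_setOf_eq, Set.mem_iUnion, Set.mem_inter_iff]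
    constructor
    · intro h
      exact ⟨L.run ω.1 ω.2.1 ω.2.2 T, rfl, h⟩
    · rintro ⟨q, hq, h⟩
      unfold Learner.output
      rw [hq]
      exact h
  rw [hEq]
  exact MeasurableSet.iUnion fun q => (measurableSet_run L hL T q).inter (hmeas q.1)

end Vale.Agent.Lib.P309.S
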