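import Vale.Agent.Lib.P309.S.Defs

/-! # P309 S: reflecting the signal in the span of the rows does not change the run -/

open scoped RealInnerProductSpace
open Vale.Agent.Results.P309.MemoryThreshold

namespace Vale.Agent.Lib.P309.S

variable {d : ℕ}

/-- `R = (rowSpan x T).reflection` fixes `x t` for `t < T` (`Submodule.reflection_mem_subspace_eq_self`,
`Submodule.subset_span`), is an isometry and an involution, so
`⟪x t, R s⟫ = ⟪R (x t), R (R s)⟫ = ⟪x t, s⟫` (`LinearIsometryEquiv.inner_map_map`,
`Submodule.reflection_reflection`). -/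
theorem inner_row_reflection (x : ℕ → E d) (T : ℕ) {t : ℕ} (ht : t < T) (s : E d) :
    ⟪x t, (rowSpan x T).reflection s⟫ = ⟪x t, s⟫ := by
  have hmem : x t ∈ rowSpan x T := Submodule.subset_span ⟨⟨t, ht⟩, rfl⟩
  have hfix : (rowSpan x T).reflection (x t) = x t :=
    Submodule.reflection_mem_subspace_eq_self hmem
  calc ⟪x t, (rowSpan x T).reflection s⟫
      = ⟪(rowSpan x T).reflection (x t), (rowSpan x T).reflection s⟫ := by rw [hfix]
    _ = ⟪x t, s⟫ := LinearIsometryEquiv.inner_map_map _ _ _

/-- induction on `t` (unfold `Learner.run`; the labels agree by `inner_row_reflection`) -/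
theorem run_rot (L : Learner d) (x : ℕ → E d) (w : L.Seed) (T : ℕ) (s : Sph d) {t : ℕ}
    (ht : t ≤ T) :
    L.run (rot (rowSpan x T).reflection s) x w t = L.run s x w t := by
  induction t with
  | zero => rfl
  | succ t ih =>
    have ih' := ih (by omega)
    have hlab : ⟪x t, ((rot (rowSpan x T).reflection s : Sph d) : E d)⟫ = ⟪x t, (s : E d)⟫ :=
      inner_row_reflection x T (by omega) (s : E d)
    simp only [Learner.run]
    rw [ih', hlab]

/-- `Set.finrank_range_le_card` / `finrank_range_le_card` -/
theorem finrank_rowSpan_le (x : ℕ → E d) (T : ℕ) : Module.finrank ℝ (rowSpan x T) ≤ T := by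
  have h : Set.finrank ℝ (Set.range fun i : Fin T => x i) ≤ Fintype.card (Fin T) :=
    finrank_range_le_card (R := ℝ) (fun i : Fin T => x i)
  rw [Fintype.card_fin] at h
  exact h

end Vale.Agent.Lib.P309.S
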