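import Vale.Agent.Lib.P309.S.Defs

/-! # P309 S: triangle inequality for angles -/

open scoped RealInnerProductSpace
open Vale.Agent.Results.P309.MemoryThreshold

namespace Vale.Agent.Lib.P309.S

variable {d : ℕ}

/-- For unit vectors `InnerProductGeometry.angle x y = arccos ⟪x, y⟫` (unfold `angle`, norms are 1).
`InnerProductGeometry.angle_le_angle_add_angle s u s'` and `angle_comm` give
`arccos ⟪s, s'⟫ ≤ 2 ε ≤ π`; then `cos (2 ε) ≤ cos (arccos ⟪s, s'⟫) = ⟪s, s'⟫`
(`Real.cos_le_cos_of_nonneg_of_le_pi`, `Real.cos_arccos`, `abs_real_inner_le_norm`). -/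
theorem cos_two_le_inner (u s s' : E d) (hu : ‖u‖ = 1) (hs : ‖s‖ = 1) (hs' : ‖s'‖ = 1) {ε : ℝ}
    (h1 : ε ≤ Real.pi / 2) (h : Real.arccos ⟪u, s⟫ ≤ ε) (h' : Real.arccos ⟪u, s'⟫ ≤ ε) :
    Real.cos (2 * ε) ≤ ⟪s, s'⟫ := by
  have a1 : InnerProductGeometry.angle s u = Real.arccos ⟪u, s⟫ := by
    rw [InnerProductGeometry.angle_comm]
    unfold InnerProductGeometry.angle
    rw [hu, hs]
    simp
  have a2 : InnerProductGeometry.angle u s' = Real.arccos ⟪u, s'⟫ := by
    unfold InnerProductGeometry.angle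
    rw [hu, hs']
    simp
  have a3 : InnerProductGeometry.angle s s' = Real.arccos ⟪s, s'⟫ := by
    unfold InnerProductGeometry.angle
    rw [hs, hs']
    simp
  have h2 := InnerProductGeometry.angle_le_angle_add_angle s u s'
  rw [a1, a2, a3] at h2
  have h3 : Real.arccos ⟪s, s'⟫ ≤ 2 * ε := by linarith
  have h4 : |⟪s, s'⟫| ≤ 1 := by
    have := abs_real_inner_le_norm s s'
    rw [hs, hs'] at this
    simpa using this
  have h5 := abs_le.1 h4
  have h6 : Real.cos (2 * ε) ≤ Real.cos (Real.arccos ⟪s, s'⟫) :=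
    Real.cos_le_cos_of_nonneg_of_le_pi (Real.arccos_nonneg _) (by linarith) h3
  rw [Real.cos_arccos h5.1 h5.2] at h6
  exact h6

end Vale.Agent.Lib.P309.S
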