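import Vale.Agent.Lib.P309.S.Defs

/-! # P309 S: the cone over the tube around `K` is inside a squeezed ball -/

open MeasureTheory Metric Set
open scoped RealInnerProductSpace Pointwise
open Vale.Agent.Results.P309.MemoryThreshold

namespace Vale.Agent.Lib.P309.S

variable {d : ℕ}

/-- orthogonality of the two components -/
theorem inner_proj_sub (K : Submodule ℝ (E d)) (s : E d) :
    ⟪K.starProjection s, s - K.starProjection s⟫ = 0 := by
  rw [real_inner_comm]
  exact Submodule.starProjection_inner_eq_zero s _ (Submodule.starProjection_apply_mem K s)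

/-- Pythagoras for the two components -/
theorem norm_sq_split (K : Submodule ℝ (E d)) (s : E d) :
    ‖s‖ ^ 2 = ‖K.starProjection s‖ ^ 2 + ‖s - K.starProjection s‖ ^ 2 := by
  have h := inner_proj_sub K s
  have h2 : s = K.starProjection s + (s - K.starProjection s) := by abel
  have h3 : ‖K.starProjection s + (s - K.starProjection s)‖ ^ 2
      = ‖K.starProjection s‖ ^ 2 + 2 * ⟪K.starProjection s, s - K.starProjection s⟫
        + ‖s - K.starProjection s‖ ^ 2 := norm_add_sq_real _ _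
  rw [← h2, h] at h3
  linarith

theorem inner_add_sub_of_orth (a b : E d) (hab : ⟪a, b⟫ = 0) :
    ⟪a + b, a - b⟫ = ‖a‖ ^ 2 - ‖b‖ ^ 2 := by
  rw [inner_add_left, inner_sub_right, inner_sub_right, real_inner_self_eq_norm_sq,
    real_inner_self_eq_norm_sq, real_inner_comm a b, hab]
  ring

/-- Let `P = K.starProjection`, `a = P s`, `b = s - P s` (orthogonal: `⟪a, b⟫ = 0`,
`Submodule.starProjection_inner_eq_zero` / `Submodule.inner_starProjection_left_eq_right`),
`‖a‖^2 + ‖b‖^2 = 1`.  `K.reflection s = 2 • P s - s = a - b` (`Submodule.reflection_apply`), so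
`⟪s, K.reflection s⟫ = ‖a‖^2 - ‖b‖^2 = 1 - 2 ‖b‖^2`, and `cos (2 ε) = 1 - 2 sin ε ^ 2`
(`Real.cos_two_mul`, `Real.sin_sq_add_cos_sq` or `Real.cos_sq'`) gives `‖b‖^2 ≤ sin ε ^ 2`. -/
theorem norm_sub_proj_sq_le (K : Submodule ℝ (E d)) {ε : ℝ} (s : E d) (hs : ‖s‖ = 1)
    (h : Real.cos (2 * ε) ≤ ⟪s, K.reflection s⟫) :
    ‖s - K.starProjection s‖ ^ 2 ≤ Real.sin ε ^ 2 := by
  set a := K.starProjection s with ha
  set b := s - a with hb
  have hab : ⟪a, b⟫ = 0 := inner_proj_sub K s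
  have hsplit : ‖s‖ ^ 2 = ‖a‖ ^ 2 + ‖b‖ ^ 2 := norm_sq_split K s
  have hs' : s = a + b := by rw [hb]; abel
  have hrefl : K.reflection s = a - b := by
    rw [Submodule.reflection_apply, ← ha, hb, two_smul]; abel
  have hinner : ⟪s, K.reflection s⟫ = ‖a‖ ^ 2 - ‖b‖ ^ 2 := by
    rw [hrefl]
    conv_lhs => rw [hs']
    exact inner_add_sub_of_orth a b hab
  have hcos : Real.cos (2 * ε) = 1 - 2 * Real.sin ε ^ 2 := by
    rw [Real.cos_two_mul, Real.cos_sq']; ring
  rw [hs, one_pow] at hsplit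
  rw [hinner, hcos] at h
  linarith

/-- For `x = r • s` take the preimage `p = r • (P s + δ⁻¹ • (s - P s))`, `δ = sin ε > 0`:
`sq K δ p = δ p + (1 - δ) P p`, `P p = r • P s` (`P` is linear, idempotent, `P (s - P s) = 0`), so
`sq K δ p = r • s`; and `‖p‖^2 = r^2 (‖P s‖^2 + ‖s - P s‖^2 / δ^2) ≤ 2 r^2 < 2` by
`norm_sub_proj_sq_le` and Pythagoras; `Real.lt_sqrt_of_sq_lt`.  (Compare `cone_subset` in
`Vale/Agent/Lib/P309/Cap.lean`.) -/
theorem cone_tube_subset (K : Submodule ℝ (E d)) {ε : ℝ} (h0 : 0 < ε) (h1 : ε ≤ Real.pi / 2)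
    (C : Set (E d))
    (hC : ∀ s ∈ C, ‖s‖ = 1 ∧ Real.cos (2 * ε) ≤ ⟪s, K.reflection s⟫) :
    Ioo (0 : ℝ) 1 • C ⊆ sq K (Real.sin ε) '' ball 0 (Real.sqrt 2) := by
  rintro x ⟨r, hr, s, hsC, rfl⟩
  obtain ⟨hs, hcos⟩ := hC s hsC
  set δ := Real.sin ε with hδ
  have hδpos : 0 < δ := Real.sin_pos_of_pos_of_lt_pi h0 (by linarith [Real.pi_pos])
  set a := K.starProjection s with ha
  set b := s - a with hb
  have hab : ⟪a, b⟫ = 0 := inner_proj_sub K s
  have hsplit : ‖s‖ ^ 2 = ‖a‖ ^ 2 + ‖b‖ ^ 2 := norm_sq_split K s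
  have hble : ‖b‖ ^ 2 ≤ δ ^ 2 := norm_sub_proj_sq_le K s hs hcos
  have hPa : K.starProjection a = a :=
    Submodule.starProjection_eq_self_iff.2 (Submodule.starProjection_apply_mem K s)
  have hPb : K.starProjection b = 0 := by
    rw [hb, map_sub, hPa, ← ha, sub_self]
  refine ⟨r • (a + δ⁻¹ • b), ?_, ?_⟩
  · rw [mem_ball_zero_iff]
    apply Real.lt_sqrt_of_sq_lt
    have hn : ‖a + δ⁻¹ • b‖ ^ 2 = ‖a‖ ^ 2 + (δ⁻¹) ^ 2 * ‖b‖ ^ 2 := by
      rw [norm_add_sq_real, inner_smul_right, hab, norm_smul, mul_pow, Real.norm_eq_abs, sq_abs]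
      ring
    have hb2 : (δ⁻¹) ^ 2 * ‖b‖ ^ 2 ≤ 1 := by
      rw [inv_pow, inv_mul_le_iff₀ (by positivity)]
      linarith
    have ha2 : ‖a‖ ^ 2 ≤ 1 := by
      rw [hs, one_pow] at hsplit
      nlinarith [sq_nonneg ‖b‖]
    rw [norm_smul, mul_pow, hn, Real.norm_eq_abs, sq_abs]
    have hr2 : r ^ 2 < 1 := by
      have := hr.1; have := hr.2
      nlinarith
    have hr0 : 0 ≤ r ^ 2 := sq_nonneg r
    have hsum0 : 0 ≤ ‖a‖ ^ 2 + (δ⁻¹) ^ 2 * ‖b‖ ^ 2 := by positivity
    nlinarith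
  · have hP : K.starProjection (r • (a + δ⁻¹ • b)) = r • a := by
      rw [map_smul, map_add, map_smul, hPa, hPb, smul_zero, add_zero]
    have hsab : s = a + b := by rw [hb]; abel
    simp only [sq, LinearMap.add_apply, LinearMap.smul_apply, LinearMap.id_apply,
      ContinuousLinearMap.coe_coe]
    rw [hP]
    conv_rhs => rw [hsab]
    simp only [smul_add, smul_smul]
    have e1 : δ * (r * δ⁻¹) = r := by field_simp
    rw [e1]
    have e2 : (δ * r) • a + r • b + ((1 - δ) * r) • a = r • a + r • b := by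
      have : (δ * r) • a + ((1 - δ) * r) • a = r • a := by
        rw [← add_smul]; congr 1; ring
      rw [← this]; abel
    exact e2

end Vale.Agent.Lib.P309.S
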