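import Vale.Agent.Lib.P309.S.Det
import Vale.Agent.Lib.P309.S.Cone

/-! # P309 S: the measure of the tube around `K` -/

open MeasureTheory Metric Set
open scoped ENNReal RealInnerProductSpace Pointwise
open Vale.Agent.Results.P309.MemoryThreshold

namespace Vale.Agent.Lib.P309.S

variable {d : ℕ}

/-- Copy the proof of `cap_measure_le` in `Vale/Agent/Lib/P309/Cap.lean` (same computation):
the set is measurable (continuity of `s ↦ ⟪s, K.reflection s⟫`), `Measure.toSphere_apply'`,
`Measure.toSphere_apply_univ`, `cone_tube_subset`, `Measure.addHaar_image_linearMap`, `det_sq`,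
`Measure.addHaar_ball_of_pos`, `finrank_euclideanSpace_fin`. -/
theorem tube_le (hd : 1 ≤ d) (K : Submodule ℝ (E d)) {ε : ℝ} (h0 : 0 < ε)
    (h1 : ε ≤ Real.pi / 2) :
    unif d {s : Sph d | Real.cos (2 * ε) ≤ ⟪(s : E d), K.reflection (s : E d)⟫} ≤
      ENNReal.ofReal (Real.sqrt 2 ^ d * Real.sin ε ^ (d - Module.finrank ℝ K)) := by
  have hc : 0 < Real.sin ε := Real.sin_pos_of_pos_of_lt_pi h0 (by linarith [Real.pi_pos])
  have hfr : Module.finrank ℝ (E d) = d := finrank_euclideanSpace_fin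
  set μ : Measure (E d) := volume with hμ
  have hmeas : MeasurableSet
      {s : Sph d | Real.cos (2 * ε) ≤ ⟪(s : E d), K.reflection (s : E d)⟫} := by
    apply measurableSet_le measurable_const
    have hcont : Continuous fun s : Sph d => ⟪(s : E d), K.reflection (s : E d)⟫ :=
      continuous_subtype_val.inner (K.reflection.continuous.comp continuous_subtype_val)
    exact hcont.measurable
  unfold unif
  rw [Measure.smul_apply, Measure.toSphere_apply' _ hmeas, Measure.toSphere_apply_univ, smul_eq_mul]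
  have hsub := cone_tube_subset K h0 h1
    ((↑) '' {s : Sph d | Real.cos (2 * ε) ≤ ⟪(s : E d), K.reflection (s : E d)⟫}) (by
      rintro _ ⟨s, hs, rfl⟩
      exact ⟨by simp, hs⟩)
  have hV0 : μ (ball (0 : E d) 1) ≠ 0 := (measure_ball_pos μ 0 one_pos).ne'
  have hVt : μ (ball (0 : E d) 1) ≠ ⊤ := measure_ball_lt_top.ne
  have hdn : ((Module.finrank ℝ (E d) : ℕ) : ℝ≥0∞) ≠ 0 := by
    simp only [ne_eq, Nat.cast_eq_zero]; omega
  calc (↑(Module.finrank ℝ (E d)) * μ (ball 0 1))⁻¹ * (↑(Module.finrank ℝ (E d)) *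
          μ (Ioo (0 : ℝ) 1 •
          ((↑) '' {s : Sph d | Real.cos (2 * ε) ≤ ⟪(s : E d), K.reflection (s : E d)⟫})))
      ≤ (↑(Module.finrank ℝ (E d)) * μ (ball 0 1))⁻¹ * (↑(Module.finrank ℝ (E d)) *
          μ (sq K (Real.sin ε) '' ball 0 (Real.sqrt 2))) := by
        gcongr
    _ = (↑(Module.finrank ℝ (E d)) * μ (ball 0 1))⁻¹ * (↑(Module.finrank ℝ (E d)) *
          (ENNReal.ofReal (Real.sin ε ^ (d - Module.finrank ℝ K)) *
            (ENNReal.ofReal (Real.sqrt 2 ^ Module.finrank ℝ (E d)) * μ (ball 0 1)))) := by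
        rw [Measure.addHaar_image_linearMap, det_sq,
          Measure.addHaar_ball_of_pos μ 0 (by positivity : (0 : ℝ) < Real.sqrt 2),
          abs_of_nonneg (by positivity)]
    _ = ((↑(Module.finrank ℝ (E d)) * μ (ball 0 1))⁻¹ *
          (↑(Module.finrank ℝ (E d)) * μ (ball 0 1))) *
          (ENNReal.ofReal (Real.sqrt 2 ^ Module.finrank ℝ (E d)) *
            ENNReal.ofReal (Real.sin ε ^ (d - Module.finrank ℝ K))) := by ring
    _ = ENNReal.ofReal (Real.sqrt 2 ^ d * Real.sin ε ^ (d - Module.finrank ℝ K)) := by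
        rw [ENNReal.inv_mul_cancel (mul_ne_zero hdn hV0)
          (ENNReal.mul_ne_top (ENNReal.natCast_ne_top _) hVt), one_mul, hfr,
          ENNReal.ofReal_mul (by positivity)]

end Vale.Agent.Lib.P309.S
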