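import Vale.Agent.Lib.P309.S.Rot
import Vale.Agent.Lib.P309.S.Tube
import Vale.Agent.Lib.P309.S.Tri
import Vale.Agent.Lib.P309.S.RunRot
import Vale.Agent.Lib.P309.S.MeasSucc
import Vale.Agent.Lib.P309.K.Unif

/-! # P309 S: the sample threshold -/

open MeasureTheory ProbabilityTheory
open scoped ENNReal RealInnerProductSpace
open Vale.Agent.Results.P309.MemoryThreshold

namespace Vale.Agent.Lib.P309.S

variable {d : ℕ}

theorem isProb_unif (hd : 1 ≤ d) : IsProbabilityMeasure (unif d) :=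
  Vale.Agent.Lib.P309.K.isProbabilityMeasure_unif hd

/-- for fixed rows and seed, the set of signals on which the learner succeeds -/
theorem section_le (hd : 1 ≤ d) {ε : ℝ} (h0 : 0 < ε) (h1 : ε ≤ Real.pi / 2) (L : Learner d)
    (T : ℕ) (x : ℕ → E d) (w : L.Seed)
    (hA : MeasurableSet {s : Sph d | Real.arccos ⟪(L.output T s x w : E d), (s : E d)⟫ ≤ ε}) :
    2 * unif d {s : Sph d | Real.arccos ⟪(L.output T s x w : E d), (s : E d)⟫ ≤ ε} ≤
      1 + ENNReal.ofReal (Real.sqrt 2 ^ d * Real.sin ε ^ (d - T)) := by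
  have := isProb_unif hd
  set K := rowSpan x T with hK
  set R := K.reflection with hR
  set A : Set (Sph d) := {s | Real.arccos ⟪(L.output T s x w : E d), (s : E d)⟫ ≤ ε} with hAdef
  have hc : 0 < Real.sin ε := Real.sin_pos_of_pos_of_lt_pi h0 (by linarith [Real.pi_pos])
  have hpre : MeasurableSet (rot R ⁻¹' A) := measurable_rot R hA
  have hinter : A ∩ rot R ⁻¹' A ⊆
      {s : Sph d | Real.cos (2 * ε) ≤ ⟪(s : E d), K.reflection (s : E d)⟫} := by
    rintro s ⟨hs1, hs2⟩
    have hs2' : Real.arccos ⟪(L.output T (rot R s) x w : E d), (rot R s : E d)⟫ ≤ ε := hs2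
    have hout : L.output T (rot R s) x w = L.output T s x w := by
      unfold Learner.output
      rw [hR, hK, run_rot L x w T s le_rfl]
    rw [hout] at hs2'
    have n1 : ‖(L.output T s x w : E d)‖ = 1 := mem_sphere_zero_iff_norm.1 (L.output T s x w).2
    have n2 : ‖(s : E d)‖ = 1 := mem_sphere_zero_iff_norm.1 s.2
    have n3 : ‖(rot R s : E d)‖ = 1 := mem_sphere_zero_iff_norm.1 (rot R s).2
    exact cos_two_le_inner _ _ _ n1 n2 n3 h1 hs1 hs2'
  have htube := tube_le hd K h0 h1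
  have hpow : Real.sqrt 2 ^ d * Real.sin ε ^ (d - Module.finrank ℝ K) ≤
      Real.sqrt 2 ^ d * Real.sin ε ^ (d - T) := by
    apply mul_le_mul_of_nonneg_left _ (by positivity)
    apply pow_le_pow_of_le_one hc.le (Real.sin_le_one ε)
    have hfr : Module.finrank ℝ K ≤ T := finrank_rowSpan_le x T
    omega
  calc 2 * unif d A = unif d A + unif d (rot R ⁻¹' A) := by rw [unif_rot R hA, two_mul]
    _ = unif d (A ∪ rot R ⁻¹' A) + unif d (A ∩ rot R ⁻¹' A) :=
        (measure_union_add_inter A hpre).symm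
    _ ≤ 1 + ENNReal.ofReal (Real.sqrt 2 ^ d * Real.sin ε ^ (d - T)) := by
        apply add_le_add prob_le_one
        exact (measure_mono hinter).trans (htube.trans (ENNReal.ofReal_le_ofReal hpow))

theorem sample_bound (hd : 1 ≤ d) {ε : ℝ} (h0 : 0 < ε) (h1 : ε ≤ Real.pi / 2) (L : Learner d)
    (hL : IsMeas L) (T : ℕ) (hs : L.Succeeds T ε) :
    (1 / 3 : ℝ) ≤ Real.sqrt 2 ^ d * Real.sin ε ^ (d - T) := by
  have := isProb_unif hd
  have hc : 0 < Real.sin ε := Real.sin_pos_of_pos_of_lt_pi h0 (by linarith [Real.pi_pos])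
  set B : ℝ := Real.sqrt 2 ^ d * Real.sin ε ^ (d - T) with hB
  have hB0 : 0 ≤ B := by rw [hB]; positivity
  have hS := measurableSet_success L hL T ε
  have hlaw : 2 * L.law {ω | Real.arccos ⟪(L.output T ω.1 ω.2.1 ω.2.2 : E d), (ω.1 : E d)⟫ ≤ ε} ≤
      1 + ENNReal.ofReal B := by
    rw [Learner.law, Measure.prod_apply_symm hS, ← lintegral_const_mul' _ _ (by simp)]
    calc ∫⁻ y, 2 * unif d ((fun s => (s, y)) ⁻¹' {ω : Sph d × (ℕ → E d) × L.Seed |
            Real.arccos ⟪(L.output T ω.1 ω.2.1 ω.2.2 : E d), (ω.1 : E d)⟫ ≤ ε})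
            ∂((Measure.infinitePi fun _ : ℕ => stdGaussian (E d)).prod L.seedLaw)
        ≤ ∫⁻ _y, (1 + ENNReal.ofReal B)
            ∂((Measure.infinitePi fun _ : ℕ => stdGaussian (E d)).prod L.seedLaw) := by
          apply lintegral_mono
          intro y
          exact section_le hd h0 h1 L T y.1 y.2 (measurable_prodMk_right hS)
      _ = 1 + ENNReal.ofReal B := by simp
  have h2 : (2 : ℝ≥0∞) * (2 / 3) ≤ 1 + ENNReal.ofReal B :=
    (mul_le_mul_right hs 2).trans hlaw
  have e1 : (2 : ℝ≥0∞) * (2 / 3) = ENNReal.ofReal (4 / 3) := by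
    rw [ENNReal.ofReal_div_of_pos (by norm_num), ← mul_div_assoc]
    norm_num
  have e2 : (1 : ℝ≥0∞) + ENNReal.ofReal B = ENNReal.ofReal (1 + B) := by
    rw [ENNReal.ofReal_add (by norm_num) hB0]; simp
  rw [e1, e2, ENNReal.ofReal_le_ofReal_iff (by positivity)] at h2
  linarith

end Vale.Agent.Lib.P309.S
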