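import Vale.Agent.Results.P309.MemoryThreshold

/-!
# P309 S: fewer than about `d` samples never suffice: definitions
-/

open MeasureTheory ProbabilityTheory
open scoped ENNReal RealInnerProductSpace
open Vale.Agent.Results.P309.MemoryThreshold

namespace Vale.Agent.Lib.P309.S

variable {d : ℕ}

/-- All rules of the learner are measurable (the finite state set carries the discrete
sigma-algebra): the initial state as a function of the seed, and every transition and every stopping
decision as a function of (row, label, seed). -/
def IsMeas (L : Learner d) : Prop :=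
  (∀ m, MeasurableSet {w : L.Seed | L.init w = m}) ∧
  (∀ t m m', MeasurableSet {p : E d × ℝ × L.Seed | L.step t m p.1 p.2.1 p.2.2 = m'}) ∧
  (∀ t m, MeasurableSet {p : E d × ℝ × L.Seed | L.halt t m p.1 p.2.1 p.2.2 = true})

/-- the action of a linear isometry on the unit sphere -/
noncomputable def rot (R : E d ≃ₗᵢ[ℝ] E d) (s : Sph d) : Sph d :=
  ⟨R s, by
    have hs : ‖(s : E d)‖ = 1 := mem_sphere_zero_iff_norm.1 s.2
    rw [mem_sphere_zero_iff_norm, R.norm_map, hs]⟩

/-- the linear map which is the identity on `K` and multiplication by `δ` on `Kᗮ` -/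
noncomputable def sq (K : Submodule ℝ (E d)) (δ : ℝ) : E d →ₗ[ℝ] E d :=
  δ • LinearMap.id + (1 - δ) • (K.starProjection : E d →ₗ[ℝ] E d)

/-- the span of the first `T` rows -/
noncomputable def rowSpan (x : ℕ → E d) (T : ℕ) : Submodule ℝ (E d) :=
  Submodule.span ℝ (Set.range fun i : Fin T => x i)

end Vale.Agent.Lib.P309.S
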