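import Vale.Agent.Lib.P309.S.Defs

/-! # P309 S: the determinant of the squeezing map -/

open scoped RealInnerProductSpace
open Vale.Agent.Results.P309.MemoryThreshold

namespace Vale.Agent.Lib.P309.S

variable {d : ℕ}

lemma sq_apply (K : Submodule ℝ (E d)) (δ : ℝ) (x : E d) :
    sq K δ x = δ • x + (1 - δ) • K.starProjection x := by
  simp [sq]

lemma sq_of_mem (K : Submodule ℝ (E d)) (δ : ℝ) {x : E d} (hx : x ∈ K) : sq K δ x = x := by
  rw [sq_apply, Submodule.starProjection_eq_self_iff.2 hx, ← add_smul]
  simp

/-- `LinearMap.det_eq_det_mul_det K (sq K δ) he : det = det (restrict) * det (K.mapQ K _ he)`.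
On `K` the map is the identity (`Submodule.starProjection_eq_self_iff`), so the first factor is
`LinearMap.det_id = 1`.  On `E ⧸ K` it is `δ • id` because `K.starProjection x ∈ K`
(`Submodule.starProjection_apply_mem` or `coe_mem`; `Submodule.Quotient.mk_eq_zero`,
`LinearMap.ext` + `Submodule.Quotient.induction_on` / `Submodule.linearMap_qext`), so the second factor
is `δ ^ finrank (E ⧸ K)` (`LinearMap.det_smul`, `LinearMap.det_id`), and
`finrank (E ⧸ K) = d - finrank K` (`Submodule.finrank_quotient`, `finrank_euclideanSpace_fin`). -/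
theorem det_sq (K : Submodule ℝ (E d)) (δ : ℝ) :
    LinearMap.det (sq K δ) = δ ^ (d - Module.finrank ℝ K) := by
  have he : K ≤ Submodule.comap (sq K δ) K := by
    intro x hx
    rw [Submodule.mem_comap, sq_of_mem K δ hx]
    exact hx
  rw [LinearMap.det_eq_det_mul_det K (sq K δ) he]
  have h1 : (sq K δ).restrict he = LinearMap.id := by
    ext x
    rw [LinearMap.restrict_apply]
    simp only [LinearMap.id_coe, id_eq]
    rw [sq_of_mem K δ x.2]
  have h2 : K.mapQ K (sq K δ) he = δ • LinearMap.id := by
    apply Submodule.linearMap_qext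
    ext x : 1
    simp only [LinearMap.comp_apply, Submodule.mkQ_apply, Submodule.mapQ_apply,
      LinearMap.smul_apply, LinearMap.id_coe, id_eq]
    rw [sq_apply, Submodule.Quotient.mk_add, Submodule.Quotient.mk_smul]
    have : (Submodule.Quotient.mk ((1 - δ) • K.starProjection x) : E d ⧸ K) = 0 := by
      rw [Submodule.Quotient.mk_eq_zero]
      exact K.smul_mem _ (Submodule.starProjection_apply_mem K x)
    rw [this, add_zero]
  rw [h1, h2, LinearMap.det_id, one_mul, LinearMap.det_smul, LinearMap.det_id, mul_one,
    Submodule.finrank_quotient, finrank_euclideanSpace_fin]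

end Vale.Agent.Lib.P309.S
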