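import Vale.Agent.Lib.P309.S.Defs

/-! # P309 S: measurability of the run of a measurable learner -/

open MeasureTheory ProbabilityTheory
open scoped ENNReal RealInnerProductSpace
open Vale.Agent.Results.P309.MemoryThreshold

namespace Vale.Agent.Lib.P309.S

variable {d : ℕ}

/-- the measurable map `ω ↦ (row t, label t, seed)` -/
theorem measurable_obs (L : Learner d) (t : ℕ) :
    Measurable (fun ω : Sph d × (ℕ → E d) × L.Seed =>
      ((ω.2.1 t, ⟪ω.2.1 t, (ω.1 : E d)⟫, ω.2.2) : E d × ℝ × L.Seed)) := by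
  have hx : Measurable (fun ω : Sph d × (ℕ → E d) × L.Seed => ω.2.1 t) :=
    (measurable_pi_apply t).comp (measurable_fst.comp measurable_snd)
  have hs : Measurable (fun ω : Sph d × (ℕ → E d) × L.Seed => (ω.1 : E d)) :=
    measurable_subtype_coe.comp measurable_fst
  have hw : Measurable (fun ω : Sph d × (ℕ → E d) × L.Seed => ω.2.2) :=
    measurable_snd.comp measurable_snd
  exact hx.prodMk ((hx.inner hs).prodMk hw)

/-- Induction on `t`.  `t = 0`: the set is `{ω | L.init ω.2.2 = q.1}` if `q.2 = false`, else empty.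
Step: `{run (t+1) = q}` is the finite union over `q' : L.State × Bool` of
`{run t = q'} ∩ B q'`, where `B q' = univ` or `∅` if `q'.2 = true` (according to `q' = q`), and if
`q'.2 = false` it is
`{ω | L.step t q'.1 (ω.2.1 t) ⟪ω.2.1 t, ω.1⟫ ω.2.2 = q.1} ∩ {ω | L.halt t q'.1 .. = q.2}`, the preimage
of the measurable sets of `IsMeas` (or of a complement, when `q.2 = false`) under the measurable map
`ω ↦ (ω.2.1 t, ⟪ω.2.1 t, ω.1⟫, ω.2.2)` (`measurable_pi_apply`, `Measurable.inner`,
`measurable_subtype_coe`). -/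
theorem measurableSet_run (L : Learner d) (hL : IsMeas L) (t : ℕ) (q : L.State × Bool) :
    MeasurableSet {ω : Sph d × (ℕ → E d) × L.Seed | L.run ω.1 ω.2.1 ω.2.2 t = q} := by
  obtain ⟨h0, h1, h2⟩ := hL
  induction t generalizing q with
  | zero =>
    obtain ⟨m, b⟩ := q
    cases b with
    | false =>
      have hset : {ω : Sph d × (ℕ → E d) × L.Seed | L.run ω.1 ω.2.1 ω.2.2 0 = (m, false)}
          = (fun ω : Sph d × (ℕ → E d) × L.Seed => ω.2.2) ⁻¹' {w | L.init w = m} := by
        ext ω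
        simp [Learner.run]
      rw [hset]
      exact (measurable_snd.comp measurable_snd) (h0 m)
    | true =>
      have hset : {ω : Sph d × (ℕ → E d) × L.Seed | L.run ω.1 ω.2.1 ω.2.2 0 = (m, true)}
          = ∅ := by
        ext ω
        simp [Learner.run]
      rw [hset]
      exact MeasurableSet.empty
  | succ t ih =>
    have hφ := measurable_obs L t
    have hset : {ω : Sph d × (ℕ → E d) × L.Seed | L.run ω.1 ω.2.1 ω.2.2 (t + 1) = q}
        = ⋃ q' : L.State × Bool,
          ({ω : Sph d × (ℕ → E d) × L.Seed | L.run ω.1 ω.2.1 ω.2.2 t = q'} ∩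
            {ω : Sph d × (ℕ → E d) × L.Seed |
              (if q'.2 then q' else
                (L.step t q'.1 (ω.2.1 t) ⟪ω.2.1 t, (ω.1 : E d)⟫ ω.2.2,
                  L.halt t q'.1 (ω.2.1 t) ⟪ω.2.1 t, (ω.1 : E d)⟫ ω.2.2)) = q}) := by
      ext ω
      simp only [Set.mem_ofPred_eq, Set.mem_iUnion, Set.mem_inter_iff]
      constructor
      · intro h
        refine ⟨L.run ω.1 ω.2.1 ω.2.2 t, rfl, ?_⟩
        rw [← h, Learner.run]
      · rintro ⟨q', hq', h⟩
        rw [Learner.run, hq']
        exact h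
    rw [hset]
    refine MeasurableSet.iUnion fun q' => (ih q').inter ?_
    obtain ⟨m', b'⟩ := q'
    obtain ⟨m, b⟩ := q
    cases b' with
    | true =>
      simp only [if_true]
      exact MeasurableSet.const _
    | false =>
      have hstep : MeasurableSet {ω : Sph d × (ℕ → E d) × L.Seed |
          L.step t m' (ω.2.1 t) ⟪ω.2.1 t, (ω.1 : E d)⟫ ω.2.2 = m} := hφ (h1 t m' m)
      have hhalt : MeasurableSet {ω : Sph d × (ℕ → E d) × L.Seed |
          L.halt t m' (ω.2.1 t) ⟪ω.2.1 t, (ω.1 : E d)⟫ ω.2.2 = true} := hφ (h2 t m')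
      have hhaltb : MeasurableSet {ω : Sph d × (ℕ → E d) × L.Seed |
          L.halt t m' (ω.2.1 t) ⟪ω.2.1 t, (ω.1 : E d)⟫ ω.2.2 = b} := by
        cases b with
        | true => exact hhalt
        | false =>
          have hc : {ω : Sph d × (ℕ → E d) × L.Seed |
              L.halt t m' (ω.2.1 t) ⟪ω.2.1 t, (ω.1 : E d)⟫ ω.2.2 = false}
              = {ω : Sph d × (ℕ → E d) × L.Seed |
              L.halt t m' (ω.2.1 t) ⟪ω.2.1 t, (ω.1 : E d)⟫ ω.2.2 = true}ᶜ := by
            ext ω
            simp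
          rw [hc]
          exact hhalt.compl
      have hc : {ω : Sph d × (ℕ → E d) × L.Seed |
              (if (m', false).2 then (m', false) else
                (L.step t (m', false).1 (ω.2.1 t) ⟪ω.2.1 t, (ω.1 : E d)⟫ ω.2.2,
                  L.halt t (m', false).1 (ω.2.1 t) ⟪ω.2.1 t, (ω.1 : E d)⟫ ω.2.2)) = (m, b)}
          = {ω : Sph d × (ℕ → E d) × L.Seed |
              L.step t m' (ω.2.1 t) ⟪ω.2.1 t, (ω.1 : E d)⟫ ω.2.2 = m} ∩
            {ω : Sph d × (ℕ → E d) × L.Seed |
              L.halt t m' (ω.2.1 t) ⟪ω.2.1 t, (ω.1 : E d)⟫ ω.2.2 = b} := by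
        ext ω
        simp [Prod.ext_iff]
      rw [hc]
      exact hstep.inter hhaltb

end Vale.Agent.Lib.P309.S
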