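import Vale.Agent.Lib.P309.S.Defs

/-! # P309 S: the uniform measure on the sphere is invariant under linear isometries -/

open MeasureTheory ProbabilityTheory Metric Set
open scoped ENNReal RealInnerProductSpace Pointwise
open Vale.Agent.Results.P309.MemoryThreshold

namespace Vale.Agent.Lib.P309.S

variable {d : ℕ}

/-- `rot R` is continuous (`Continuous.subtype_mk`, `R.continuous`), hence measurable -/
theorem measurable_rot (R : E d ≃ₗᵢ[ℝ] E d) : Measurable (rot R) := by
  have hc : Continuous (rot R) := by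
    unfold rot
    exact Continuous.subtype_mk (R.continuous.comp continuous_subtype_val) _
  exact hc.measurable

theorem cone_rot (R : E d ≃ₗᵢ[ℝ] E d) (A : Set (Sph d)) :
    Ioo (0 : ℝ) 1 • ((↑) '' (rot R ⁻¹' A) : Set (E d))
      = R ⁻¹' (Ioo (0 : ℝ) 1 • ((↑) '' A : Set (E d))) := by
  ext x
  simp only [Set.mem_smul, Set.mem_preimage, Set.mem_image]
  constructor
  · rintro ⟨t, ht, _, ⟨s, hs, rfl⟩, rfl⟩
    exact ⟨t, ht, _, ⟨rot R s, hs, rfl⟩, by simp [rot]⟩
  · rintro ⟨t, ht, _, ⟨s, hs, rfl⟩, hx⟩
    refine ⟨t, ht, _, ⟨rot R.symm s, ?_, rfl⟩, ?_⟩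
    · have : rot R (rot R.symm s) = s := by
        apply Subtype.ext
        simp [rot]
      rw [this]
      exact hs
    · have : x = R.symm (t • (s : E d)) := by
        rw [hx]; simp
      rw [this]
      simp [rot]

/-- Unfold `unif`; `Measure.smul_apply`; `Measure.toSphere_apply'` for `A` and for `rot R ⁻¹' A`
(measurable by `measurable_rot`).  `Ioo 0 1 • ((↑) '' (rot R ⁻¹' A)) = R ⁻¹' (Ioo 0 1 • ((↑) '' A))`
(`R` is linear and bijective, `R.symm` maps the sphere to itself), and `R` preserves `volume`: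
`(LinearIsometryEquiv.measurePreserving R).measure_preimage_equiv` (with `R.toMeasurableEquiv` /
`R.toHomeomorph.toMeasurableEquiv`) or `.measure_preimage` with null-measurability. -/
theorem unif_rot (R : E d ≃ₗᵢ[ℝ] E d) {A : Set (Sph d)} (hA : MeasurableSet A) :
    unif d (rot R ⁻¹' A) = unif d A := by
  unfold unif
  rw [Measure.smul_apply, Measure.smul_apply, Measure.toSphere_apply' _ hA,
    Measure.toSphere_apply' _ (measurable_rot R hA), cone_rot]
  have hmp : MeasurePreserving (R.toHomeomorph.toMeasurableEquiv) (volume : Measure (E d))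
      (volume : Measure (E d)) := LinearIsometryEquiv.measurePreserving R
  have := hmp.measure_preimage_equiv (Ioo (0 : ℝ) 1 • ((↑) '' A : Set (E d)))
  have h2 : (volume : Measure (E d)) (R ⁻¹' (Ioo (0 : ℝ) 1 • ((↑) '' A : Set (E d))))
      = (volume : Measure (E d)) (Ioo (0 : ℝ) 1 • ((↑) '' A : Set (E d))) := this
  rw [h2]

end Vale.Agent.Lib.P309.S
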